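import Crest.Agent.R18.PL

/-! Row 18 block EM: auxiliary polynomial (pigeonhole) and the Liouville inequality. -/

set_option autoImplicit false
open scoped NumberField

namespace Crest.Agent.R18

theorem em_expand {R : Type*} [CommRing R] {v : R} {M : ℕ} (hv : v ^ M = 0) (n : ℕ) :
    (1 + v) ^ n = ∑ k : Fin M, (n.choose k : R) * v ^ (k : ℕ) := by
  rw [Fin.sum_univ_eq_sum_range (fun k => (n.choose k : R) * v ^ k) M, add_comm, add_pow]
  have h1 : ∑ k ∈ Finset.range (n + 1), v ^ k * 1 ^ (n - k) * (n.choose k : R) =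
      ∑ k ∈ Finset.range (n + 1 + M), (n.choose k : R) * v ^ k := by
    rw [← Finset.sum_subset (Finset.range_subset_range.2 (Nat.le_add_right (n + 1) M))]
    · exact Finset.sum_congr rfl fun k _ => by rw [one_pow, mul_one, mul_comm]
    · intro k _ hk
      rw [Nat.choose_eq_zero_of_lt (by simpa using hk), Nat.cast_zero, zero_mul]
  rw [h1]
  refine (Finset.sum_subset (Finset.range_subset_range.2 (Nat.le_add_left M (n + 1))) ?_).symm
  intro k _ hk
  rw [pow_eq_zero_of_le (by simpa using hk) hv, mul_zero]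

/-- pigeonhole in a finite ring -/
theorem em_siegel {R ι μ : Type*} [CommRing R] [Fintype R] [Fintype ι] [Fintype μ] (v : μ → ι → R)
    {M B : ℕ} (hv : ∀ m i, v m i ^ M = 0)
    (hB : Fintype.card R ^ (M ^ Fintype.card ι) < (B + 1) ^ Fintype.card μ) :
    ∃ b : μ → ℤ, b ≠ 0 ∧ (∀ m, |b m| ≤ B) ∧
      ∀ n : ι → ℕ, ∑ m, (b m : R) * ∏ i, (1 + v m i) ^ n i = 0 := by
  classical
  obtain ⟨x, y, hxy, h⟩ := Fintype.exists_ne_map_eq_of_card_lt
    (fun (b : μ → Fin (B + 1)) (k : ι → Fin M) => ∑ m, ((b m : ℕ) : R) * ∏ i, v m i ^ (k i : ℕ))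
    (by simpa using hB)
  refine ⟨fun m => (x m : ℕ) - (y m : ℕ), fun h0 => hxy (funext fun m => Fin.ext ?_), fun m => ?_,
    fun n => ?_⟩
  · have := congrFun h0 m
    simp only [Pi.zero_apply] at this
    omega
  · have h1 := (x m).2
    have h2 := (y m).2
    dsimp only
    rw [abs_le]
    constructor <;> omega
  · simp only [em_expand (hv _ _), Fintype.prod_sum, Finset.mul_sum, Finset.prod_mul_distrib]
    rw [Finset.sum_comm]
    refine Finset.sum_eq_zero fun k _ => ?_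
    have h1 := congrFun h k
    have h2 : ∑ m, (((x m : ℕ) : R) - ((y m : ℕ) : R)) * ∏ i, v m i ^ (k i : ℕ) = 0 := by
      simp only [sub_mul, Finset.sum_sub_distrib]
      exact sub_eq_zero.2 h1
    calc _ = (∏ i, ((n i).choose (k i) : R)) *
          ∑ m, (((x m : ℕ) : R) - ((y m : ℕ) : R)) * ∏ i, v m i ^ (k i : ℕ) := by
          rw [Finset.mul_sum]
          refine Finset.sum_congr rfl fun m _ => ?_
          push_cast
          ring
      _ = 0 := by rw [h2, mul_zero]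

/-- the `ℓ`-adic auxiliary function -/
theorem em_padic (ℓ : ℕ) [Fact ℓ.Prime] (h2 : ℓ ≠ 2) {ι μ : Type*} [Fintype ι] [Fintype μ]
    (c : μ → ι → ℤ_[ℓ]) {M B : ℕ} (hB : (ℓ ^ M) ^ (M ^ Fintype.card ι) < (B + 1) ^ Fintype.card μ) :
    ∃ b : μ → ℤ, b ≠ 0 ∧ (∀ m, |b m| ≤ B) ∧ ∀ z : ι → ℤ_[ℓ],
      ‖∑ m, (b m : ℤ_[ℓ]) * ∏ i, pexp ℓ (c m i * z i)‖ ≤ (ℓ : ℝ) ^ (-M : ℤ) := by
  have hp : ℓ.Prime := Fact.out
  have hl : (1 : ℝ) ≤ ℓ := by exact_mod_cast hp.one_lt.le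
  have hl1 : (ℓ : ℝ)⁻¹ ≤ 1 := inv_le_one_of_one_le₀ hl
  have hker : ∀ x : ℤ_[ℓ], PadicInt.toZModPow M x = 0 ↔ ‖x‖ ≤ (ℓ : ℝ) ^ (-M : ℤ) := fun x => by
    rw [PadicInt.norm_le_pow_iff_mem_span_pow, ← PadicInt.ker_toZModPow, RingHom.mem_ker]
  have : NeZero (ℓ ^ M) := ⟨pow_ne_zero _ hp.ne_zero⟩
  have hv : ∀ m i, PadicInt.toZModPow M (pexp ℓ (c m i) - 1) ^ M = 0 := fun m i => by
    rw [← map_pow, hker, norm_pow, ← (pexp ℓ).map_zero_eq_one, norm_pexp_sub ℓ h2, sub_zero,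
      zpow_neg, zpow_natCast, ← inv_pow]
    gcongr
    exact mul_le_of_le_one_right (by positivity) (PadicInt.norm_le_one _)
  obtain ⟨b, hb0, hb1, hb2⟩ := em_siegel (R := ZMod (ℓ ^ M))
    (fun m i => PadicInt.toZModPow M (pexp ℓ (c m i) - 1)) (M := M) (B := B) hv
    (by rwa [ZMod.card])
  · refine ⟨b, hb0, hb1, fun z => ?_⟩
    rw [← hker, ← hb2 fun i => (z i).appr M, map_sum]
    refine Finset.sum_congr rfl fun m _ => ?_
    rw [map_mul, map_intCast, map_prod]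
    congr 1
    refine Finset.prod_congr rfl fun i _ => ?_
    rw [map_sub, map_one, add_sub_cancel, ← map_pow, ← AddChar.map_nsmul_eq_pow, ← sub_eq_zero,
      ← map_sub, hker, norm_pexp_sub ℓ h2, nsmul_eq_mul, mul_comm (_ : ℤ_[ℓ]) (c m i), ← mul_sub,
      norm_mul]
    have h3 := (PadicInt.norm_le_pow_iff_mem_span_pow _ _).2 (PadicInt.appr_spec M (z i))
    calc _ ≤ 1 * (1 * (ℓ : ℝ) ^ (-M : ℤ)) := by
          gcongr
          exact PadicInt.norm_le_one _
      _ = _ := by ring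

theorem em_norm_le_one {K : Type*} [Field K] {ℓ : ℕ} [Fact ℓ.Prime] (e : K →+* ℚ_[ℓ]) {x : K}
    (hx : IsIntegral ℤ x) : ‖e x‖ ≤ 1 := by
  have h1 : IsIntegral ℤ_[ℓ] (e x) := (map_isIntegral_int e hx).tower_top
  obtain ⟨y, hy⟩ := IsIntegrallyClosed.isIntegral_iff.1 h1
  rw [← hy]
  exact y.2

/-- Liouville inequality -/
theorem em_liouville {K : Type*} [Field K] [NumberField K] {ℓ : ℕ} [Fact ℓ.Prime] (e : K →+* ℚ_[ℓ])
    {ξ : K} (hξ : IsIntegral ℤ ξ) (h0 : ξ ≠ 0) {M : ℕ} (hM : ‖e ξ‖ ≤ (ℓ : ℝ) ^ (-M : ℤ)) :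
    (ℓ : ℝ) ^ M ≤ NumberField.house ξ ^ Module.finrank ℚ K := by
  set x : 𝓞 K := ⟨ξ, hξ⟩ with hx
  have hx0 : x ≠ 0 := fun h => h0 (congrArg Subtype.val h)
  set N : ℕ := (Algebra.norm ℤ x).natAbs with hN
  have hN0 : N ≠ 0 := Int.natAbs_ne_zero.2 (Algebra.norm_ne_zero_iff.2 hx0)
  obtain ⟨y, hy⟩ : x ∣ (N : 𝓞 K) := by
    rw [← Ideal.mem_span_singleton, hN, ← Ideal.absNorm_span_singleton]
    exact Ideal.absNorm_mem _
  have h1 : ((N : ℤ) : ℚ_[ℓ]) = e ξ * e (y : K) := by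
    have := congrArg (fun t : 𝓞 K => e (algebraMap (𝓞 K) K t)) hy
    simp only [map_natCast, map_mul] at this
    rw [Int.cast_natCast, this]
    rfl
  have h2 : ‖((N : ℤ) : ℚ_[ℓ])‖ ≤ (ℓ : ℝ) ^ (-M : ℤ) := by
    rw [h1, norm_mul]
    exact (mul_le_of_le_one_right (norm_nonneg _) (em_norm_le_one e y.2)).trans hM
  rw [Padic.norm_int_le_pow_iff_dvd] at h2
  have h3 : ℓ ^ M ≤ N := Nat.le_of_dvd (Nat.pos_of_ne_zero hN0) (by exact_mod_cast h2)
  have h4 : (N : ℝ) = ‖Algebra.norm ℚ ξ‖ := by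
    rw [show ξ = (x : K) from rfl, ← Algebra.coe_norm_int, hN, Nat.cast_natAbs, Int.cast_abs,
      ← Rat.norm_cast_real, Real.norm_eq_abs, Rat.cast_intCast]
  obtain ⟨σ⟩ : Nonempty (K →+* ℂ) := inferInstance
  have h5 := NumberField.norm_norm_le_norm_mul_house_pow ξ σ
  have h6 : 0 < Module.finrank ℚ K := Module.finrank_pos
  calc (ℓ : ℝ) ^ M ≤ N := by exact_mod_cast h3
    _ ≤ NumberField.house ξ * NumberField.house ξ ^ (Module.finrank ℚ K - 1) := by
        rw [h4]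
        exact h5.trans (mul_le_mul_of_nonneg_right (NumberField.norm_embedding_le_house ξ σ)
          (pow_nonneg (NumberField.house_nonneg _) _))
    _ = _ := by rw [← pow_succ', Nat.sub_add_cancel h6]

theorem em_house_prod {K : Type*} [Field K] [NumberField K] {ι : Type*} (s : Finset ι) (f : ι → K) :
    NumberField.house (∏ i ∈ s, f i) ≤ ∏ i ∈ s, NumberField.house (f i) := by
  simpa [NumberField.house, map_prod] using Finset.norm_prod_le _ _

/-- clearing denominators in a polynomial value -/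
theorem em_clear {K : Type*} [Field K] [NumberField K] {τ μ : Type*} [Fintype τ] [Fintype μ]
    (Y : τ → K) (δ : ℤ) {C : ℝ} (hi : ∀ t, IsIntegral ℤ ((δ : K) * Y t))
    (hY : ∀ t, NumberField.house ((δ : K) * Y t) ≤ C) (hδ : (|δ| : ℝ) ≤ C) (b : μ → ℤ) {B G : ℕ}
    (hb : ∀ m, |b m| ≤ B) (x : μ → τ → ℕ) (hx : ∀ m t, x m t ≤ G) :
    IsIntegral ℤ ((δ : K) ^ (G * Fintype.card τ) * ∑ m, (b m : K) * ∏ t, Y t ^ x m t) ∧
      NumberField.house ((δ : K) ^ (G * Fintype.card τ) * ∑ m, (b m : K) * ∏ t, Y t ^ x m t) ≤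
        Fintype.card μ * (B * C ^ (G * Fintype.card τ)) := by
  have hC : 0 ≤ C := (abs_nonneg _).trans hδ
  have e : (δ : K) ^ (G * Fintype.card τ) * ∑ m, (b m : K) * ∏ t, Y t ^ x m t =
      ∑ m, (b m : K) * ∏ t, (δ : K) ^ (G - x m t) * ((δ : K) * Y t) ^ x m t := by
    rw [Finset.mul_sum]
    refine Finset.sum_congr rfl fun m _ => ?_
    rw [mul_left_comm, pow_mul, ← Finset.card_univ, ← Finset.prod_const, ← Finset.prod_mul_distrib]
    congr 1
    refine Finset.prod_congr rfl fun t _ => ?_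
    rw [mul_pow, ← mul_assoc, ← pow_add, Nat.sub_add_cancel (hx m t)]
  have hint : ∀ z : ℤ, IsIntegral ℤ (z : K) := fun z => isIntegral_algebraMap (R := ℤ) (x := z)
  rw [e]
  refine ⟨IsIntegral.sum _ fun m _ => (hint _).mul (IsIntegral.prod _ fun t _ =>
    ((hint _).pow _).mul ((hi t).pow _)), ?_⟩
  refine (NumberField.house_sum_le_sum_house _ _).trans ?_
  rw [← Finset.card_univ (α := μ), ← nsmul_eq_mul, ← Finset.sum_const]
  refine Finset.sum_le_sum fun m _ => (NumberField.house_mul_le _ _).trans ?_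
  refine mul_le_mul ?_ ?_ (NumberField.house_nonneg _) (Nat.cast_nonneg _)
  · rw [NumberField.house_intCast]
    exact_mod_cast hb m
  · refine (em_house_prod _ _).trans ?_
    rw [pow_mul, ← Finset.card_univ, ← Finset.prod_const]
    refine Finset.prod_le_prod (fun t _ => NumberField.house_nonneg _) fun t _ => ?_
    refine (NumberField.house_mul_le _ _).trans ?_
    have h1 : NumberField.house ((δ : K) ^ (G - x m t)) ≤ C ^ (G - x m t) := by
      refine (NumberField.house_pow_le _ _).trans (pow_le_pow_left₀ (NumberField.house_nonneg _) ?_ _)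
      rw [NumberField.house_intCast]
      exact_mod_cast hδ
    have h2 : NumberField.house (((δ : K) * Y t) ^ x m t) ≤ C ^ x m t :=
      (NumberField.house_pow_le _ _).trans (pow_le_pow_left₀ (NumberField.house_nonneg _) (hY t) _)
    refine (mul_le_mul h1 h2 (NumberField.house_nonneg _) (pow_nonneg hC _)).trans (le_of_eq ?_)
    rw [← pow_add, Nat.sub_add_cancel (hx m t)]

/-- a common denominator and a common bound `ℓ ^ γ` -/
theorem em_den {K : Type*} [Field K] [NumberField K] {τ : Type*} [Fintype τ] (Y : τ → K) {ℓ : ℕ}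
    (hl : 1 < ℓ) : ∃ (δ : ℤ) (γ : ℕ), δ ≠ 0 ∧ (∀ t, IsIntegral ℤ ((δ : K) * Y t)) ∧
      (∀ t, NumberField.house ((δ : K) * Y t) ≤ (ℓ : ℝ) ^ γ) ∧ (|δ| : ℝ) ≤ (ℓ : ℝ) ^ γ := by
  classical
  have : Algebra.IsAlgebraic ℤ K :=
    (IsFractionRing.comap_isAlgebraic_iff (A := ℤ) (K := ℚ)).2 inferInstance
  obtain ⟨δ, h0, hδ⟩ := Algebra.IsAlgebraic.exists_integral_multiples ℤ (Finset.univ.image Y)
  obtain ⟨γ, hγ⟩ := pow_unbounded_of_one_lt (|(δ : ℝ)| + ∑ t, NumberField.house ((δ : K) * Y t))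
    (show (1 : ℝ) < ℓ by exact_mod_cast hl)
  have h1 : 0 ≤ ∑ t, NumberField.house ((δ : K) * Y t) :=
    Finset.sum_nonneg fun t _ => NumberField.house_nonneg _
  refine ⟨δ, γ, h0, fun t => ?_, fun t => ?_, by linarith⟩
  · simpa using hδ _ (Finset.mem_image_of_mem Y (Finset.mem_univ t))
  · have := Finset.single_le_sum (f := fun t => NumberField.house ((δ : K) * Y t))
      (fun t _ => NumberField.house_nonneg _) (Finset.mem_univ t)
    linarith [abs_nonneg (δ : ℝ)]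

end Crest.Agent.R18
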